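import Mathlib

open Filter Topology NormedSpace

noncomputable section

namespace Vale.Agent.P069

variable {E F G : Type*} [NormedAddCommGroup E] [NormedSpace ℝ E]
  [NormedAddCommGroup F] [NormedSpace ℝ F] [NormedAddCommGroup G] [NormedSpace ℝ G]

def dualMap (A : E →L[ℝ] F) : StrongDual ℝ F →L[ℝ] StrongDual ℝ E :=
  (ContinuousLinearMap.compL ℝ E F ℝ).flip A

@[simp] lemma dualMap_apply (A : E →L[ℝ] F) (x : StrongDual ℝ F) (u : E) :
    dualMap A x u = x (A u) := rfl

structure Dec (S : ℕ → E →L[ℝ] E) : Prop where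
  idem : ∀ m u, S m (S m u) = S m u
  pyth : ∀ m u, ‖u‖ ^ 2 = ‖S m u‖ ^ 2 + ‖u - S m u‖ ^ 2
  conv : ∀ u, Tendsto (fun m => S m u) atTop (𝓝 u)

lemma cs_aux (a b c d : ℝ) :
    a * c + b * d ≤ Real.sqrt (a ^ 2 + b ^ 2) * Real.sqrt (c ^ 2 + d ^ 2) := by
  rw [← Real.sqrt_mul (by positivity)]
  apply Real.le_sqrt_of_sq_le
  nlinarith [sq_nonneg (a * d - b * c)]

lemma Dec.norm_le {S : ℕ → E →L[ℝ] E} (h : Dec S) (m : ℕ) (u : E) : ‖S m u‖ ≤ ‖u‖ := by
  have := h.pyth m u
  nlinarith [norm_nonneg (S m u), norm_nonneg u, sq_nonneg (‖u - S m u‖)]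

lemma Dec.norm_sub_le {S : ℕ → E →L[ℝ] E} (h : Dec S) (m : ℕ) (u : E) :
    ‖u - S m u‖ ≤ ‖u‖ := by
  have := h.pyth m u
  nlinarith [norm_nonneg (u - S m u), norm_nonneg u, sq_nonneg (‖S m u‖)]

lemma Dec.pyth_sum {S : ℕ → E →L[ℝ] E} (h : Dec S) (m : ℕ) (u v : E) :
    ‖S m u + (v - S m v)‖ ^ 2 = ‖S m u‖ ^ 2 + ‖v - S m v‖ ^ 2 := by
  have h1 : S m (S m u + (v - S m v)) = S m u := by
    simp [map_add, map_sub, h.idem]
  rw [h.pyth m, h1]
  congr 2
  rw [add_sub_cancel_left]

lemma exists_near (f : StrongDual ℝ E) {r : ℝ} (hr : r < ‖f‖) :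
    ∃ u : E, ‖u‖ ≤ 1 ∧ r < f u := by
  obtain ⟨u, hu, hru⟩ := f.exists_lt_apply_of_lt_opNorm hr
  rcases le_total 0 (f u) with h | h
  · exact ⟨u, hu.le, by rwa [Real.norm_of_nonneg h] at hru⟩
  · refine ⟨-u, by simpa using hu.le, ?_⟩
    rw [map_neg]
    rwa [Real.norm_of_nonpos h] at hru

lemma Dec.dual {S : ℕ → E →L[ℝ] E} (h : Dec S) : Dec (fun m => dualMap (S m)) := by
  have pyth : ∀ m (x : StrongDual ℝ E),
      ‖x‖ ^ 2 = ‖dualMap (S m) x‖ ^ 2 + ‖x - dualMap (S m) x‖ ^ 2 := by
    intro m x
    apply le_antisymm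
    · set a := ‖dualMap (S m) x‖ with ha
      set b := ‖x - dualMap (S m) x‖ with hb
      have key : ‖x‖ ≤ Real.sqrt (a ^ 2 + b ^ 2) := by
        apply ContinuousLinearMap.opNorm_le_bound _ (Real.sqrt_nonneg _)
        intro u
        have e1 : x u = (dualMap (S m) x) (S m u) + (x - dualMap (S m) x) (u - S m u) := by
          simp [map_sub, h.idem]
        have e2 : ‖x u‖ ≤ a * ‖S m u‖ + b * ‖u - S m u‖ := by
          rw [e1]
          refine (norm_add_le _ _).trans (add_le_add ?_ ?_)
          · exact ContinuousLinearMap.le_opNorm _ _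
          · exact ContinuousLinearMap.le_opNorm _ _
        refine e2.trans ((cs_aux _ _ _ _).trans ?_)
        rw [← h.pyth m u, Real.sqrt_sq (norm_nonneg _)]
      calc ‖x‖ ^ 2 ≤ (Real.sqrt (a ^ 2 + b ^ 2)) ^ 2 := by
            exact pow_le_pow_left₀ (norm_nonneg _) key 2
        _ = a ^ 2 + b ^ 2 := Real.sq_sqrt (by positivity)
    · set a := ‖dualMap (S m) x‖ with ha
      set b := ‖x - dualMap (S m) x‖ with hb
      have main : ∀ ε : ℝ, 0 < ε →
          (max (a - ε) 0) ^ 2 + (max (b - ε) 0) ^ 2 ≤ ‖x‖ ^ 2 := by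
        intro ε hε
        obtain ⟨u, hu, hu'⟩ := exists_near (dualMap (S m) x) (r := a - ε) (by linarith)
        obtain ⟨v, hv, hv'⟩ := exists_near (x - dualMap (S m) x) (r := b - ε) (by linarith)
        set α := max (a - ε) 0 with hα
        set β := max (b - ε) 0 with hβ
        have hα0 : 0 ≤ α := le_max_right _ _
        have hβ0 : 0 ≤ β := le_max_right _ _
        have i1 : α ^ 2 ≤ α * (dualMap (S m) x) u := by
          rcases le_total (a - ε) 0 with h0 | h0
          · simp [hα, max_eq_right h0]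
          · have : α = a - ε := max_eq_left h0
            rw [sq]
            apply mul_le_mul_of_nonneg_left _ hα0
            linarith
        have i2 : β ^ 2 ≤ β * (x - dualMap (S m) x) v := by
          rcases le_total (b - ε) 0 with h0 | h0
          · simp [hβ, max_eq_right h0]
          · have : β = b - ε := max_eq_left h0
            rw [sq]
            apply mul_le_mul_of_nonneg_left _ hβ0
            linarith
        have i3 : α * (dualMap (S m) x) u + β * (x - dualMap (S m) x) v
            = x (S m (α • u) + (β • v - S m (β • v))) := by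
          simp [map_add, map_sub, map_smul]
          ring
        have i4 : ‖S m (α • u) + (β • v - S m (β • v))‖ ^ 2 ≤ α ^ 2 + β ^ 2 := by
          rw [h.pyth_sum]
          have j1 := h.norm_le m (α • u)
          have j2 := h.norm_sub_le m (β • v)
          rw [norm_smul, Real.norm_of_nonneg hα0] at j1
          rw [norm_smul, Real.norm_of_nonneg hβ0] at j2
          have k1 : ‖S m (α • u)‖ ≤ α := j1.trans (by nlinarith)
          have k2 : ‖β • v - S m (β • v)‖ ≤ β := j2.trans (by nlinarith)
          have l1 := pow_le_pow_left₀ (norm_nonneg _) k1 2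
          have l2 := pow_le_pow_left₀ (norm_nonneg _) k2 2
          linarith
        have i5 : x (S m (α • u) + (β • v - S m (β • v)))
            ≤ ‖x‖ * ‖S m (α • u) + (β • v - S m (β • v))‖ :=
          (le_abs_self _).trans (x.le_opNorm _)
        set w := ‖S m (α • u) + (β • v - S m (β • v))‖ with hw
        have hw0 : 0 ≤ w := norm_nonneg _
        have hx0 : 0 ≤ ‖x‖ := norm_nonneg _
        have i6 : α ^ 2 + β ^ 2 ≤ ‖x‖ * w := by linarith
        by_contra hcon
        push Not at hcon
        have i7 : (α ^ 2 + β ^ 2) ^ 2 ≤ (‖x‖ * w) ^ 2 :=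
          pow_le_pow_left₀ (by positivity) i6 2
        have i8 : (‖x‖ * w) ^ 2 ≤ ‖x‖ ^ 2 * (α ^ 2 + β ^ 2) := by
          rw [mul_pow]
          exact mul_le_mul_of_nonneg_left i4 (by positivity)
        have i9 : 0 < α ^ 2 + β ^ 2 := lt_of_le_of_lt (by positivity) hcon
        nlinarith
      have ha0 : 0 ≤ a := norm_nonneg _
      have hb0 : 0 ≤ b := norm_nonneg _
      refine le_of_forall_pos_le_add fun ε hε => ?_
      set η := ε / (2 * (a + b) + 1) with hη
      have hpos : 0 < 2 * (a + b) + 1 := by positivity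
      have hη0 : 0 < η := div_pos hε hpos
      have m1 := main η hη0
      have m2 : a ^ 2 - 2 * a * η ≤ (max (a - η) 0) ^ 2 := by
        rcases le_total (a - η) 0 with h0 | h0
        · rw [max_eq_right h0]; nlinarith
        · rw [max_eq_left h0]; nlinarith
      have m3 : b ^ 2 - 2 * b * η ≤ (max (b - η) 0) ^ 2 := by
        rcases le_total (b - η) 0 with h0 | h0
        · rw [max_eq_right h0]; nlinarith
        · rw [max_eq_left h0]; nlinarith
      have m4 : 2 * a * η + 2 * b * η ≤ ε := by
        have : ε = η * (2 * (a + b) + 1) := by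
          rw [hη]; field_simp
        rw [this]; nlinarith
      linarith
  refine ⟨?_, pyth, ?_⟩
  · intro m x
    ext u
    simp [h.idem]
  · intro x
    rw [tendsto_iff_norm_sub_tendsto_zero]
    have sqlim : Tendsto (fun m => ‖dualMap (S m) x - x‖ ^ 2) atTop (𝓝 0) := by
      have hn : Tendsto (fun m => ‖dualMap (S m) x‖) atTop (𝓝 ‖x‖) := by
        rw [Metric.tendsto_atTop]
        intro ε hε
        obtain ⟨u, hu, hu'⟩ := exists_near x (r := ‖x‖ - ε) (by linarith)
        have hc : Tendsto (fun m => x (S m u)) atTop (𝓝 (x u)) :=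
          (x.continuous.tendsto _).comp (h.conv u)
        obtain ⟨M, hM⟩ := (Filter.eventually_atTop).1 (hc.eventually (lt_mem_nhds hu'))
        refine ⟨M, fun m hm => ?_⟩
        have h1 := hM m hm
        have h2 : x (S m u) ≤ ‖dualMap (S m) x‖ := by
          have := (dualMap (S m) x).le_opNorm u
          rw [dualMap_apply, Real.norm_eq_abs] at this
          calc x (S m u) ≤ |x (S m u)| := le_abs_self _
            _ ≤ ‖dualMap (S m) x‖ * ‖u‖ := this
            _ ≤ ‖dualMap (S m) x‖ * 1 :=
                mul_le_mul_of_nonneg_left hu (norm_nonneg _)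
            _ = _ := mul_one _
        have h3 : ‖dualMap (S m) x‖ ≤ ‖x‖ := by
          have := pyth m x
          nlinarith [norm_nonneg (dualMap (S m) x), norm_nonneg x,
            sq_nonneg (‖x - dualMap (S m) x‖)]
        rw [Real.dist_eq, abs_sub_lt_iff]
        constructor <;> linarith
      have h5 : (fun m => ‖dualMap (S m) x - x‖ ^ 2)
          = fun m => ‖x‖ ^ 2 - ‖dualMap (S m) x‖ ^ 2 := by
        funext m
        have := pyth m x
        rw [norm_sub_rev]
        linarith
      rw [h5]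
      have h6 := (tendsto_const_nhds (x := ‖x‖ ^ 2)).sub (hn.pow 2)
      simpa using h6
    have h7 := (Real.continuous_sqrt.tendsto 0).comp sqlim
    simp only [Real.sqrt_zero] at h7
    refine h7.congr fun m => ?_
    simp [Real.sqrt_sq (norm_nonneg _)]

lemma hilbert_reflexive {K : Type*} [NormedAddCommGroup K] [InnerProductSpace ℝ K]
    [CompleteSpace K] (φ : StrongDual ℝ (StrongDual ℝ K)) :
    ∃ h : K, ∀ f : StrongDual ℝ K, φ f = f h := by
  let f₀ : StrongDual ℝ K :=
    LinearMap.mkContinuous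
      { toFun := fun y => φ (InnerProductSpace.toDual ℝ K y)
        map_add' := by intro y z; simp
        map_smul' := by intro c y; simp } ‖φ‖ (by
        intro y
        refine (φ.le_opNorm _).trans ?_
        simp)
  refine ⟨(InnerProductSpace.toDual ℝ K).symm f₀, fun f => ?_⟩
  obtain ⟨y, rfl⟩ := (InnerProductSpace.toDual ℝ K).surjective f
  rw [InnerProductSpace.toDual_apply_apply, real_inner_comm,
    InnerProductSpace.toDual_symm_apply]
  rfl

theorem reflexive_dual {S : ℕ → E →L[ℝ] E} (hS : Dec S)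
    (K : ℕ → Type) [∀ m, NormedAddCommGroup (K m)] [∀ m, InnerProductSpace ℝ (K m)]
    [∀ m, CompleteSpace (K m)] (A : ∀ m, E →L[ℝ] K m) (B : ∀ m, K m →L[ℝ] E)
    (hAB : ∀ m u, S m u = B m (A m u)) :
    Function.Surjective (inclusionInDoubleDual ℝ (StrongDual ℝ E)) := by
  intro Φ
  have hconv := hS.dual.dual.dual.conv Φ
  have hclosed : IsClosed (Set.range (inclusionInDoubleDual ℝ (StrongDual ℝ E))) := by
    have := (inclusionInDoubleDualLi (E := StrongDual ℝ E) ℝ).isometry.isUniformInducing.isComplete_range.isClosed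
    exact this
  have hmem : ∀ m, dualMap (dualMap (dualMap (S m))) Φ
      ∈ Set.range (inclusionInDoubleDual ℝ (StrongDual ℝ E)) := by
    intro m
    let ψ : StrongDual ℝ (K m) := (Φ.comp (inclusionInDoubleDual ℝ E)).comp (B m)
    refine ⟨ψ.comp (A m), ?_⟩
    ext φ
    obtain ⟨h, hh⟩ := hilbert_reflexive (φ.comp (dualMap (A m)))
    have e1 : φ (ψ.comp (A m)) = ψ h := hh ψ
    have e2 : dualMap (dualMap (S m)) φ = inclusionInDoubleDual ℝ E (B m h) := by
      ext x
      have e3 : dualMap (S m) x = dualMap (A m) (x.comp (B m)) := by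
        ext u
        simp [hAB]
      rw [dualMap_apply, e3, dual_def]
      exact hh (x.comp (B m))
    rw [dual_def, e1, dualMap_apply, e2]
    rfl
  exact hclosed.mem_of_tendsto hconv (Eventually.of_forall hmem)

end Vale.Agent.P069
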