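import Vale.Agent.P069.Defs
import Vale.Agent.P069.Dec

open Filter Topology NormedSpace

noncomputable section

namespace Vale.Agent.P069

variable {E : Type*} [NormedAddCommGroup E] [NormedSpace ℝ E]

def resMap (P : E →L[ℝ] E) :
    StrongDual ℝ E →L[ℝ] StrongDual ℝ (LinearMap.range (P : E →ₗ[ℝ] E)) :=
  dualMap (LinearMap.range (P : E →ₗ[ℝ] E)).subtypeL

def annih (P : E →L[ℝ] E) : Submodule ℝ (StrongDual ℝ E) :=
  LinearMap.ker (resMap P).toLinearMap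

lemma mem_annih (P : E →L[ℝ] E) (y : StrongDual ℝ E) (hy : y ∈ annih P) (u : E) :
    y (P u) = 0 := by
  have h : resMap P y = 0 := LinearMap.mem_ker.1 hy
  have h2 := congrArg (fun f : StrongDual ℝ (LinearMap.range (P : E →ₗ[ℝ] E)) =>
    f ⟨P u, ⟨u, rfl⟩⟩) h
  exact h2

lemma annih_cof (P : E →L[ℝ] E) (hP : FiniteDimensional ℝ (LinearMap.range (P : E →ₗ[ℝ] E))) :
    annih P ∈ Cof (StrongDual ℝ E) := by
  constructor
  · exact ContinuousLinearMap.isClosed_ker (resMap P)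
  · have : FiniteDimensional ℝ (StrongDual ℝ (LinearMap.range (P : E →ₗ[ℝ] E))) :=
      inferInstance
    exact Module.Finite.equiv (LinearMap.quotKerEquivRange (resMap P).toLinearMap).symm

structure Good (E : Type*) [NormedAddCommGroup E] [NormedSpace ℝ E] : Prop where
  ex : ∀ x : StrongDual ℝ E, ∀ ε : ℝ, 0 < ε → ∃ P : E →L[ℝ] E,
    FiniteDimensional ℝ (LinearMap.range (P : E →ₗ[ℝ] E)) ∧ ‖x - dualMap P x‖ ≤ ε ∧
    ∀ u v : E, ∃ v₁ v₂ : E, v - P v = v₁ - v₂ ∧ P v₁ = 0 ∧ P v₂ = 0 ∧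
      ‖v₁‖ ≤ 2 * ‖v‖ ∧ ‖v₂‖ ≤ 2 * ‖v‖ ∧
      ∀ β : ℝ, 0 ≤ β → ‖P u + β • v₁‖ ^ 2 ≤ ‖u‖ ^ 2 + 4 * β ^ 2 * ‖v‖ ^ 2 ∧
        ‖P u + β • v₂‖ ^ 2 ≤ ‖u‖ ^ 2 + 4 * β ^ 2 * ‖v‖ ^ 2

lemma apply_le_of_norm (f : StrongDual ℝ E) (w : E) (R : ℝ) (h : ‖w‖ ≤ R) :
    f w ≤ ‖f‖ * R :=
  ((le_abs_self _).trans (f.le_opNorm w)).trans
    (mul_le_mul_of_nonneg_left h (norm_nonneg _))

set_option maxHeartbeats 1000000 in
theorem amuc_key (hE : Good E) (x : StrongDual ℝ E) (hx : ‖x‖ = 1) (t : ℝ) (ht : 0 < t)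
    (ε : ℝ) (hε : 0 < ε) : ∃ F ∈ Cof (StrongDual ℝ E), ∀ y ∈ F, ‖y‖ = 1 →
      2 * Real.sqrt (1 + t ^ 2 / 16) - ε ≤ ‖x + t • y‖ + ‖x - t • y‖ := by
  set β : ℝ := t / 8 with hβ
  have hβ0 : 0 < β := by positivity
  set η : ℝ := ε / (3 + 4 * β + t * β) with hη
  have hden : 0 < 3 + 4 * β + t * β := by positivity
  have hη0 : 0 < η := div_pos hε hden
  obtain ⟨P, hfin, happ, hsplit⟩ := hE.ex x η hη0
  refine ⟨annih P, annih_cof P hfin, fun y hy hy1 => ?_⟩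
  obtain ⟨u, hu, hux⟩ := exists_near (dualMap P x) (r := ‖dualMap P x‖ - η / 2)
    (by linarith)
  obtain ⟨v, hv, hvy⟩ := exists_near y (r := 1 - η) (by rw [hy1]; linarith)
  obtain ⟨v₁, v₂, hsub, hP1, hP2, hn1, hn2, hcomb⟩ := hsplit u v
  obtain ⟨hc1, hc2⟩ := hcomb β hβ0.le
  have hux' : 1 - η - η / 2 < x (P u) := by
    have h1 : ‖x‖ ≤ ‖x - dualMap P x‖ + ‖dualMap P x‖ := by
      have := norm_add_le (x - dualMap P x) (dualMap P x)
      rwa [sub_add_cancel] at this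
    rw [dualMap_apply] at hux
    rw [hx] at h1
    linarith
  set R := Real.sqrt (1 + t ^ 2 / 16) with hR
  have hR1 : 1 ≤ R := by
    rw [hR]
    apply Real.one_le_sqrt.2
    have : 0 ≤ t ^ 2 / 16 := by positivity
    linarith
  have hR2 : R ^ 2 = 1 + t ^ 2 / 16 := Real.sq_sqrt (by positivity)
  have hw : ∀ w : E, ‖P u + β • w‖ ^ 2 ≤ ‖u‖ ^ 2 + 4 * β ^ 2 * ‖v‖ ^ 2 →
      ‖P u + β • w‖ ≤ R := by
    intro w h
    apply Real.le_sqrt_of_sq_le
    refine h.trans ?_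
    have h1 : ‖u‖ ^ 2 ≤ 1 := by
      have := pow_le_pow_left₀ (norm_nonneg u) hu 2
      simpa using this
    have h2 : ‖v‖ ^ 2 ≤ 1 := by
      have := pow_le_pow_left₀ (norm_nonneg v) hv 2
      simpa using this
    have h3 : 4 * β ^ 2 * ‖v‖ ^ 2 ≤ 4 * β ^ 2 * 1 :=
      mul_le_mul_of_nonneg_left h2 (by positivity)
    have h4 : 4 * β ^ 2 = t ^ 2 / 16 := by rw [hβ]; ring
    linarith
  have hx1 : -(2 * η) ≤ x v₁ := by
    have h1 : x v₁ = (x - dualMap P x) v₁ := by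
      simp [hP1]
    rw [h1]
    have h2 := (x - dualMap P x).le_opNorm v₁
    rw [Real.norm_eq_abs] at h2
    have h3 : ‖x - dualMap P x‖ * ‖v₁‖ ≤ η * 2 := by
      apply mul_le_mul happ _ (norm_nonneg _) hη0.le
      linarith
    have h4 := neg_abs_le ((x - dualMap P x) v₁)
    linarith
  have hx2 : -(2 * η) ≤ x v₂ := by
    have h1 : x v₂ = (x - dualMap P x) v₂ := by
      simp [hP2]
    rw [h1]
    have h2 := (x - dualMap P x).le_opNorm v₂
    rw [Real.norm_eq_abs] at h2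
    have h3 : ‖x - dualMap P x‖ * ‖v₂‖ ≤ η * 2 := by
      apply mul_le_mul happ _ (norm_nonneg _) hη0.le
      linarith
    have h4 := neg_abs_le ((x - dualMap P x) v₂)
    linarith
  have hyu : y (P u) = 0 := mem_annih P y hy u
  have hyv : y v₁ - y v₂ = y v := by
    rw [← map_sub, ← hsub, map_sub, mem_annih P y hy v, sub_zero]
  have k1 : (x + t • y) (P u + β • v₁) = x (P u) + β * x v₁ + t * β * y v₁ := by
    simp only [add_apply, smul_apply, map_add, map_smul,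
      smul_eq_mul, hyu]
    ring
  have k2 : (x - t • y) (P u + β • v₂) = x (P u) + β * x v₂ - t * β * y v₂ := by
    simp only [sub_apply, smul_apply, map_add, map_smul,
      smul_eq_mul, hyu]
    ring
  have l1 := apply_le_of_norm (x + t • y) _ R (hw v₁ hc1)
  have l2 := apply_le_of_norm (x - t • y) _ R (hw v₂ hc2)
  rw [k1] at l1
  rw [k2] at l2
  have htβ : 0 < t * β := by positivity
  have q1 : 2 + t * β - (3 + 4 * β + t * β) * η
      ≤ (‖x + t • y‖ + ‖x - t • y‖) * R := by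
    have q2 : t * β * (1 - η) ≤ t * β * y v := mul_le_mul_of_nonneg_left hvy.le htβ.le
    have q3 : β * (-(2 * η)) ≤ β * x v₁ := mul_le_mul_of_nonneg_left hx1 hβ0.le
    have q4 : β * (-(2 * η)) ≤ β * x v₂ := mul_le_mul_of_nonneg_left hx2 hβ0.le
    have q5 : t * β * y v = t * β * y v₁ - t * β * y v₂ := by rw [← hyv]; ring
    nlinarith
  have q6 : (3 + 4 * β + t * β) * η = ε := by
    rw [hη]; field_simp
  have q7 : 2 + t * β = 2 * R ^ 2 := by rw [hR2, hβ]; ring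
  rw [q6, q7] at q1
  have hR0 : 0 < R := by linarith
  by_contra hcon
  push Not at hcon
  have q8 : (‖x + t • y‖ + ‖x - t • y‖) * R < (2 * R - ε) * R :=
    mul_lt_mul_of_pos_right hcon hR0
  nlinarith

end Vale.Agent.P069
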