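import Vale.Agent.P069.KeyH

open scoped ENNReal lp
open Filter Topology NormedSpace

noncomputable section

namespace Vale.Agent.P069

lemma P_apply (m : ℕ) (D : Finset (List ℕ)) (z : E) (k : ℕ) :
    ((P m D z : E) : Z) k = if k < m then emb k (PD D (pr k z)) else 0 := by
  have e : ((P m D z : E) : Z)
      = ∑ n ∈ Finset.range m, lp.single 2 n (emb n (PD D (pr n z))) := by
    unfold P
    rw [sum_apply, Submodule.coe_sum]
    rfl
  rw [e]
  have h := map_sum (lp.evalCLM ℝ (fun _ : ℕ => V) 2 k)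
    (fun n => lp.single (E := fun _ : ℕ => V) 2 n (emb n (PD D (pr n z)))) (Finset.range m)
  change (lp.evalCLM ℝ (fun _ : ℕ => V) 2 k) _ = _
  rw [h]
  have h2 : ∀ n, (lp.evalCLM ℝ (fun _ : ℕ => V) 2 k)
      (lp.single (E := fun _ : ℕ => V) 2 n (emb n (PD D (pr n z))))
      = if n = k then emb k (PD D (pr k z)) else 0 := by
    intro n
    change (lp.single (E := fun _ : ℕ => V) 2 n (emb n (PD D (pr n z)))) k = _
    split_ifs with hnk
    · subst hnk; rw [lp.single_apply_self]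
    · rw [lp.single_apply_ne _ _ _ (Ne.symm hnk)]
  simp only [h2]
  rw [Finset.sum_ite_eq' (Finset.range m) k (fun _ => emb k (PD D (pr k z)))]
  simp only [Finset.mem_range]

variable (m : ℕ) (D : Finset (List ℕ)) (hD : ∀ a l, a :: l ∈ D → l ∈ D)

def comp (u v : E) (n : ℕ) : H :=
  if n < m then TH D hD (pr n u) (pr n v) else (1 / 2 : ℝ) • pr n v

lemma emb_pr (v : E) (n : ℕ) : emb n (pr n v) = (v : Z) n := by
  rw [pr_apply, emb_fst_eq v.2]

lemma emb_comp_sq (u v : E) (n : ℕ) :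
    ‖emb n (comp m D hD u v n)‖ ^ 2 ≤ 4 * ‖(v : Z) n‖ ^ 2 := by
  unfold comp
  rw [← emb_pr v n]
  split_ifs with hn
  · exact emb_TH_sq D hD n _ _
  · rw [map_smul, norm_smul, mul_pow]
    have : ‖(1 / 2 : ℝ)‖ = 1 / 2 := by norm_num
    rw [this]
    have : 0 ≤ ‖emb n (pr n v)‖ ^ 2 := by positivity
    nlinarith

def TE (u v : E) : E :=
  ⟨⟨fun n => emb n (comp m D hD u v n), memℓp_of_sq (emb_comp_sq m D hD u v)⟩, by
    intro n
    rfl⟩

lemma TE_apply (u v : E) (n : ℕ) :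
    ((TE m D hD u v : E) : Z) n = emb n (comp m D hD u v n) := rfl

lemma pr_TE (u v : E) (n : ℕ) : pr n (TE m D hD u v) = comp m D hD u v n := rfl

lemma TE_sub (u v : E) : v - P m D v = TE m D hD u v - TE m D hD u (-v) := by
  apply Subtype.ext
  apply lp.ext
  funext n
  change (v : Z) n - ((P m D v : E) : Z) n
    = emb n (comp m D hD u v n) - emb n (comp m D hD u (-v) n)
  rw [P_apply, ← emb_pr v n, ← map_sub]
  unfold comp
  rw [map_neg]
  split_ifs with hn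
  · rw [TH_sub, map_sub]
  · rw [sub_zero]
    congr 1
    rw [smul_neg, sub_neg_eq_add, ← add_smul]
    norm_num

lemma P_TE (u v : E) : P m D (TE m D hD u v) = 0 := by
  apply Subtype.ext
  apply lp.ext
  funext n
  rw [P_apply]
  split_ifs with hn
  · rw [pr_TE]
    unfold comp
    rw [if_pos hn, PD_TH, map_zero]; rfl
  · rfl

lemma TE_norm_sq (u v : E) (β : ℝ) (hβ : 0 ≤ β) :
    ‖P m D u + β • TE m D hD u v‖ ^ 2 ≤ ‖u‖ ^ 2 + 4 * β ^ 2 * ‖v‖ ^ 2 := by
  change ‖((P m D u + β • TE m D hD u v : E) : Z)‖ ^ 2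
    ≤ ‖(u : Z)‖ ^ 2 + 4 * β ^ 2 * ‖(v : Z)‖ ^ 2
  apply Z_norm_sq_le
  intro n
  change ‖((P m D u : E) : Z) n + β • emb n (comp m D hD u v n)‖ ^ 2 ≤ _
  rw [P_apply, ← emb_pr v n, ← emb_pr u n]
  unfold comp
  split_ifs with hn
  · rw [← map_smul, ← map_add]
    exact emb_comb_sq D hD n _ _ β hβ
  · rw [zero_add, norm_smul, map_smul, norm_smul, Real.norm_of_nonneg hβ]
    have h1 : ‖(1 / 2 : ℝ)‖ = 1 / 2 := by norm_num
    rw [h1]
    have h2 : 0 ≤ ‖emb n (pr n u)‖ ^ 2 := by positivity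
    have h3 : 0 ≤ β ^ 2 * ‖emb n (pr n v)‖ ^ 2 := by positivity
    nlinarith

end Vale.Agent.P069
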