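import Vale.Agent.P069.Amuc
import Vale.Agent.P069.KeyE

open Filter Topology NormedSpace
open scoped ENNReal lp

noncomputable section

namespace Vale.Agent.P069

section

variable {E : Type*} [NormedAddCommGroup E] [NormedSpace ℝ E]

theorem amuc_modulus (hE : Good E) (t : ℝ) (ht : 0 < t) :
    ((Real.sqrt (1 + t ^ 2 / 16) - 1 : ℝ) : EReal)
      ≤ amucModulus (normSeminorm ℝ (StrongDual ℝ E)) t := by
  unfold amucModulus
  refine le_iInf fun x => le_iInf fun hx => ?_
  have hx' : ‖x‖ = 1 := hx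
  refine le_of_forall_lt fun a ha => ?_
  obtain ⟨r, har, hr⟩ := EReal.lt_iff_exists_real_btwn.1 ha
  have hr' : r < Real.sqrt (1 + t ^ 2 / 16) - 1 := EReal.coe_lt_coe_iff.1 hr
  obtain ⟨F, hF, hy⟩ := amuc_key hE x hx' t ht (2 * (Real.sqrt (1 + t ^ 2 / 16) - 1 - r))
    (by linarith)
  refine lt_of_lt_of_le har ?_
  refine le_iSup₂_of_le F hF ?_
  refine le_iInf₂ fun y hyF => le_iInf fun hy1 => ?_
  rw [EReal.coe_le_coe_iff]
  have h := hy y hyF hy1
  change r ≤ max ‖x + t • y‖ ‖x - t • y‖ - 1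
  have h1 := le_max_left ‖x + t • y‖ ‖x - t • y‖
  have h2 := le_max_right ‖x + t • y‖ ‖x - t • y‖
  linarith

end

lemma TE_norm_le (m : ℕ) (D : Finset (List ℕ)) (hD : ∀ a l, a :: l ∈ D → l ∈ D) (u v : E) :
    ‖TE m D hD u v‖ ≤ 2 * ‖v‖ := by
  have h : ‖((TE m D hD u v : E) : Z)‖ ^ 2 ≤ ‖(0 : Z)‖ ^ 2 + 4 * ‖(v : Z)‖ ^ 2 := by
    apply Z_norm_sq_le
    intro n
    have := emb_comp_sq m D hD u v n
    rw [TE_apply]
    simpa using this
  rw [norm_zero] at h
  have h2 : ‖TE m D hD u v‖ ^ 2 ≤ (2 * ‖v‖) ^ 2 := by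
    change ‖((TE m D hD u v : E) : Z)‖ ^ 2 ≤ (2 * ‖(v : Z)‖) ^ 2
    nlinarith
  exact le_of_sq_le_sq h2 (by positivity)

lemma P_finite (m : ℕ) (D : Finset (List ℕ)) :
    FiniteDimensional ℝ (LinearMap.range (P m D : E →ₗ[ℝ] E)) := by
  classical
  let s : Finset E := ((Finset.range m) ×ˢ D).image
    (fun p => iota p.1 (lp.single (E := fun _ : List ℕ => ℝ) 2 p.2 (1 : ℝ)))
  have hle : LinearMap.range (P m D : E →ₗ[ℝ] E) ≤ Submodule.span ℝ (s : Set E) := by
    rintro _ ⟨z, rfl⟩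
    change P m D z ∈ _
    unfold P
    rw [sum_apply]
    apply Submodule.sum_mem
    intro n hn
    change iota n (PD D (pr n z)) ∈ _
    rw [PD_eq_sum, map_sum]
    apply Submodule.sum_mem
    intro t ht
    have e : lp.single (E := fun _ : List ℕ => ℝ) 2 t ((pr n z) t)
        = ((pr n z) t) • lp.single (E := fun _ : List ℕ => ℝ) 2 t (1 : ℝ) := by
      rw [← lp.single_smul]
      simp
    rw [e, map_smul]
    apply Submodule.smul_mem
    apply Submodule.subset_span
    simp only [s, Finset.coe_image, Set.mem_image, Finset.mem_coe, Finset.mem_product]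
    exact ⟨(n, t), ⟨hn, ht⟩, rfl⟩
  have : FiniteDimensional ℝ (Submodule.span ℝ (s : Set E)) :=
    FiniteDimensional.span_finset ℝ s
  exact Submodule.finiteDimensional_of_le hle

theorem goodE : Good E where
  ex := by
    intro x ε hε
    obtain ⟨m, D, hD, h⟩ := exists_approx x ε hε
    refine ⟨P m D, P_finite m D, h, fun u v => ?_⟩
    refine ⟨TE m D hD u v, TE m D hD u (-v), TE_sub m D hD u v, P_TE m D hD u v,
      P_TE m D hD u (-v), TE_norm_le m D hD u v, ?_, ?_⟩
    · have := TE_norm_le m D hD u (-v)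
      rwa [norm_neg] at this
    · intro β hβ
      refine ⟨TE_norm_sq m D hD u v β hβ, ?_⟩
      have := TE_norm_sq m D hD u (-v) β hβ
      rwa [norm_neg] at this

end Vale.Agent.P069
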