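import Vale.Agent.P069.Space

open scoped ENNReal lp
open Filter Topology NormedSpace

noncomputable section

namespace Vale.Agent.P069

def PD (D : Finset (List ℕ)) : H →L[ℝ] H :=
  ∑ t ∈ D, (lp.singleContinuousLinearMap ℝ (fun _ : List ℕ => ℝ) 2 t).comp
    (lp.evalCLM ℝ (fun _ : List ℕ => ℝ) 2 t)

lemma PD_eq_sum (D : Finset (List ℕ)) (u : H) :
    PD D u = ∑ t ∈ D, lp.single (E := fun _ : List ℕ => ℝ) 2 t (u t) := by
  unfold PD
  rw [sum_apply]
  rfl

lemma PD_apply (D : Finset (List ℕ)) (u : H) (q : List ℕ) :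
    (PD D u) q = if q ∈ D then u q else 0 := by
  rw [PD_eq_sum]
  have h := map_sum (lp.evalCLM ℝ (fun _ : List ℕ => ℝ) 2 q)
    (fun t => lp.single (E := fun _ : List ℕ => ℝ) 2 t (u t)) D
  change (lp.evalCLM ℝ (fun _ : List ℕ => ℝ) 2 q) _ = _
  rw [h]
  have h2 : ∀ t, (lp.evalCLM ℝ (fun _ : List ℕ => ℝ) 2 q)
      (lp.single (E := fun _ : List ℕ => ℝ) 2 t (u t)) = if t = q then u q else 0 := by
    intro t
    change (lp.single (E := fun _ : List ℕ => ℝ) 2 t (u t)) q = _
    split_ifs with hnk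
    · subst hnk; rw [lp.single_apply_self]
    · rw [lp.single_apply_ne _ _ _ (Ne.symm hnk)]
  simp only [h2]
  rw [Finset.sum_ite_eq' D q (fun _ => u q)]

lemma PD_tendsto (u : H) : Tendsto (fun D => PD D u) atTop (𝓝 u) := by
  have h := lp.hasSum_single (E := fun _ : List ℕ => ℝ) (p := 2) (by norm_num) u
  refine Tendsto.congr (fun D => ?_) h
  rw [PD_eq_sum]

lemma PD_symm (D : Finset (List ℕ)) (u v : H) :
    inner ℝ (PD D u) v = inner ℝ u (PD D v) := by
  rw [PD_eq_sum, PD_eq_sum, sum_inner, inner_sum]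
  apply Finset.sum_congr rfl
  intro t _
  rw [lp.inner_single_left, lp.inner_single_right]

lemma dual_PD_tendsto (f : StrongDual ℝ H) :
    Tendsto (fun D => dualMap (PD D) f) atTop (𝓝 f) := by
  obtain ⟨h, rfl⟩ := (InnerProductSpace.toDual ℝ H).surjective f
  have e : ∀ D, dualMap (PD D) ((InnerProductSpace.toDual ℝ H) h)
      = (InnerProductSpace.toDual ℝ H) (PD D h) := by
    intro D
    ext v
    simp only [dualMap_apply, InnerProductSpace.toDual_apply_apply]
    rw [PD_symm]
  simp only [e]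
  exact ((InnerProductSpace.toDual ℝ H).continuous.tendsto h).comp (PD_tendsto h)

def P (m : ℕ) (D : Finset (List ℕ)) : E →L[ℝ] E :=
  ∑ n ∈ Finset.range m, ((iota n).comp (PD D)).comp (pr n)

lemma P_tendsto (x : StrongDual ℝ E) (m : ℕ) :
    Tendsto (fun D => dualMap (P m D) x) atTop (𝓝 (dualMap (S m) x)) := by
  have e1 : ∀ D, dualMap (P m D) x
      = ∑ n ∈ Finset.range m, dualMap (pr n) (dualMap (PD D) (dualMap (iota n) x)) := by
    intro D
    ext z
    unfold P
    simp only [dualMap_apply, ContinuousLinearMap.comp_apply, sum_apply, map_sum]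
  have e2 : dualMap (S m) x = ∑ n ∈ Finset.range m, dualMap (pr n) (dualMap (iota n) x) := by
    ext z
    unfold S
    simp only [dualMap_apply, ContinuousLinearMap.comp_apply, sum_apply, map_sum]
  rw [e2]
  simp only [e1]
  apply tendsto_finsetSum
  intro n _
  exact ((dualMap (pr n)).continuous.tendsto _).comp (dual_PD_tendsto (dualMap (iota n) x))

def clos (D : Finset (List ℕ)) : Finset (List ℕ) := D.biUnion (fun l => l.tails.toFinset)

lemma subset_clos (D : Finset (List ℕ)) : D ⊆ clos D := by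
  intro l hl
  unfold clos
  rw [Finset.mem_biUnion]
  refine ⟨l, hl, ?_⟩
  rw [List.mem_toFinset, List.mem_tails]

lemma clos_closed (D : Finset (List ℕ)) (a : ℕ) (l : List ℕ) (h : a :: l ∈ clos D) :
    l ∈ clos D := by
  unfold clos at *
  rw [Finset.mem_biUnion] at *
  obtain ⟨r, hr, h⟩ := h
  refine ⟨r, hr, ?_⟩
  rw [List.mem_toFinset, List.mem_tails] at *
  exact (List.suffix_cons a l).trans h

lemma exists_approx (x : StrongDual ℝ E) (ε : ℝ) (hε : 0 < ε) :
    ∃ (m : ℕ) (D : Finset (List ℕ)), (∀ a l, a :: l ∈ D → l ∈ D) ∧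
      ‖x - dualMap (P m D) x‖ ≤ ε := by
  have h1 := decE.dual.conv x
  rw [Metric.tendsto_atTop] at h1
  obtain ⟨m, hm⟩ := h1 (ε / 2) (by positivity)
  have h2 := hm m le_rfl
  have h3 := P_tendsto x m
  have h3 := (Metric.tendsto_atTop (α := StrongDual ℝ E)).1 h3
  obtain ⟨D, hD⟩ := h3 (ε / 2) (by positivity)
  have h4 := hD (clos D) (subset_clos D)
  refine ⟨m, clos D, clos_closed D, ?_⟩
  have h6 : dist x (dualMap (P m (clos D)) x) = ‖x - dualMap (P m (clos D)) x‖ :=
    dist_eq_norm (E := StrongDual ℝ E) x _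
  rw [← h6]
  have h5 := dist_triangle x (dualMap (S m) x) (dualMap (P m (clos D)) x)
  have h7 := dist_comm x (dualMap (S m) x)
  have h8 := dist_comm (dualMap (S m) x) (dualMap (P m (clos D)) x)
  linarith

end Vale.Agent.P069
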