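import Mathlib

namespace Vale.Agent.P069

variable {X : Type*} [NormedAddCommGroup X] [NormedSpace ℝ X]

def Cof (X : Type*) [NormedAddCommGroup X] [NormedSpace ℝ X] : Set (Submodule ℝ X) :=
  {F | IsClosed (F : Set X) ∧ FiniteDimensional ℝ (X ⧸ F)}

def IsEquivalentNorm (N : Seminorm ℝ X) : Prop :=
  ∃ c C : ℝ, 0 < c ∧ 0 < C ∧ ∀ x : X, c * ‖x‖ ≤ N x ∧ N x ≤ C * ‖x‖

noncomputable def aucModulus (N : Seminorm ℝ X) (t : ℝ) : EReal :=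
  ⨅ x : X, ⨅ _ : N x = 1, ⨆ F ∈ Cof X, ⨅ y ∈ F, ⨅ _ : N y = 1,
    ((N (x + t • y) - 1 : ℝ) : EReal)

noncomputable def amucModulus (N : Seminorm ℝ X) (t : ℝ) : EReal :=
  ⨅ x : X, ⨅ _ : N x = 1, ⨆ F ∈ Cof X, ⨅ y ∈ F, ⨅ _ : N y = 1,
    ((max (N (x + t • y)) (N (x - t • y)) - 1 : ℝ) : EReal)

def IsAUC (N : Seminorm ℝ X) : Prop := ∀ t : ℝ, 0 < t → 0 < aucModulus N t

def IsAMUC (N : Seminorm ℝ X) : Prop := ∀ t : ℝ, 0 < t → 0 < amucModulus N t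

def AUCRenormable (X : Type*) [NormedAddCommGroup X] [NormedSpace ℝ X] : Prop :=
  ∃ N : Seminorm ℝ X, IsEquivalentNorm N ∧ IsAUC N

def AMUCRenormable (X : Type*) [NormedAddCommGroup X] [NormedSpace ℝ X] : Prop :=
  ∃ N : Seminorm ℝ X, IsEquivalentNorm N ∧ IsAMUC N

def IsReflexive (X : Type*) [NormedAddCommGroup X] [NormedSpace ℝ X] : Prop :=
  ∀ φ : StrongDual ℝ (StrongDual ℝ X), ∃ x : X, ∀ f : StrongDual ℝ X, φ f = f x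

end Vale.Agent.P069
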