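import Vale.Agent.P069.Approx

open scoped ENNReal lp
open Filter Topology NormedSpace

noncomputable section

namespace Vale.Agent.P069

def dG (b : List ℕ → ℝ) : List ℕ → ℝ
  | [] => b []
  | a :: l => b (a :: l) - b l

lemma G_dG (b : List ℕ → ℝ) (q : List ℕ) : G (dG b) q = b q := by
  induction q with
  | nil => rfl
  | cons a l ih => simp [dG, ih]

def onD (D : Finset (List ℕ)) (u : List ℕ → ℝ) (t : List ℕ) : ℝ := if t ∈ D then u t else 0
def offD (D : Finset (List ℕ)) (u : List ℕ → ℝ) (t : List ℕ) : ℝ := if t ∈ D then 0 else u t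

def phi (a b : ℝ) : ℝ := if 0 ≤ a then min b 0 else max b 0

lemma phi_sub (a b : ℝ) : phi a b - phi a (-b) = b := by
  unfold phi
  split_ifs
  · rcases le_total b 0 with h | h
    · rw [min_eq_left h, min_eq_right (by linarith)]; ring
    · rw [min_eq_right h, min_eq_left (by linarith)]; ring
  · rcases le_total b 0 with h | h
    · rw [max_eq_right h, max_eq_left (by linarith)]; ring
    · rw [max_eq_left h, max_eq_right (by linarith)]; ring

lemma phi_zero (a : ℝ) : phi a 0 = 0 := by
  unfold phi; split_ifs <;> simp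

lemma abs_phi_sub (a b c : ℝ) : |phi a b - phi a c| ≤ |b - c| := by
  unfold phi
  split_ifs
  · have := abs_min_sub_min_le_max b 0 c 0
    simpa using this
  · have := abs_max_sub_max_le_max b 0 c 0
    simpa using this

lemma abs_phi_le (a b : ℝ) : |phi a b| ≤ |b| := by
  have := abs_phi_sub a b 0
  simpa [phi_zero] using this

lemma mul_phi_nonpos (a b : ℝ) : a * phi a b ≤ 0 := by
  unfold phi
  split_ifs with h
  · exact mul_nonpos_of_nonneg_of_nonpos h (min_le_right _ _)
  · push Not at h
    exact mul_nonpos_of_nonpos_of_nonneg h.le (le_max_right _ _)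

lemma sq_add_phi_le (a b β : ℝ) (hβ : 0 ≤ β) :
    (a + β * phi a b) ^ 2 ≤ a ^ 2 + β ^ 2 * b ^ 2 := by
  have h1 := mul_phi_nonpos a b
  have h2 : (phi a b) ^ 2 ≤ b ^ 2 := sq_le_sq.2 (abs_phi_le a b)
  have h3 : β * (a * phi a b) ≤ 0 := mul_nonpos_of_nonneg_of_nonpos hβ h1
  have h4 : β ^ 2 * (phi a b) ^ 2 ≤ β ^ 2 * b ^ 2 :=
    mul_le_mul_of_nonneg_left h2 (by positivity)
  nlinarith

def T (D : Finset (List ℕ)) (u v : List ℕ → ℝ) : List ℕ → ℝ :=
  dG (fun q => phi (G (onD D u) q) (G (offD D v) q))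

lemma G_neg (u : List ℕ → ℝ) (q : List ℕ) : G (-u) q = -G u q := by
  have := G_smul (-1) u q
  simpa using this

lemma offD_neg (D : Finset (List ℕ)) (v : List ℕ → ℝ) : offD D (-v) = -offD D v := by
  funext t
  unfold offD
  simp only [Pi.neg_apply]
  split_ifs <;> simp

lemma onD_add_offD (D : Finset (List ℕ)) (v : List ℕ → ℝ) : onD D v + offD D v = v := by
  funext t
  unfold onD offD
  simp only [Pi.add_apply]
  split_ifs <;> simp

lemma T_sub (D : Finset (List ℕ)) (u v : List ℕ → ℝ) (q : List ℕ) :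
    T D u v q - T D u (-v) q = offD D v q := by
  cases q with
  | nil =>
    simp only [T, dG, offD_neg, G_neg]
    rw [phi_sub]; rfl
  | cons a l =>
    simp only [T, dG, offD_neg, G_neg]
    have h1 := phi_sub (G (onD D u) (a :: l)) (G (offD D v) (a :: l))
    have h2 := phi_sub (G (onD D u) l) (G (offD D v) l)
    have h3 : G (offD D v) (a :: l) = offD D v (a :: l) + G (offD D v) l := rfl
    linarith

variable {D : Finset (List ℕ)} (hD : ∀ a l, a :: l ∈ D → l ∈ D)

include hD in
lemma G_offD_eq_zero (v : List ℕ → ℝ) (q : List ℕ) (hq : q ∈ D) : G (offD D v) q = 0 := by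
  induction q with
  | nil => simp [offD, hq]
  | cons a l ih =>
    rw [G_cons, ih (hD a l hq)]
    simp [offD, hq]

include hD in
lemma G_onD_eq (u : List ℕ → ℝ) (q : List ℕ) (hq : q ∈ D) : G (onD D u) q = G u q := by
  have h := G_offD_eq_zero hD u q hq
  have h2 := G_add (onD D u) (offD D u) q
  rw [onD_add_offD, h] at h2
  linarith

include hD in
lemma abs_G_onD_le (u : List ℕ → ℝ) (n : ℕ) (C : ℝ) (hC : 0 ≤ C)
    (h : ∀ q : List ℕ, q.length ≤ n → |G u q| ≤ C) (q : List ℕ) (hq : q.length ≤ n) :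
    |G (onD D u) q| ≤ C := by
  induction q with
  | nil =>
    by_cases hd : [] ∈ D
    · rw [G_onD_eq hD u _ hd]; exact h _ hq
    · simpa [onD, hd] using hC
  | cons a l ih =>
    by_cases hd : a :: l ∈ D
    · rw [G_onD_eq hD u _ hd]; exact h _ hq
    · rw [G_cons]
      have : onD D u (a :: l) = 0 := by simp [onD, hd]
      rw [this, zero_add]
      apply ih
      simp only [List.length_cons] at hq
      omega

include hD in
lemma abs_G_offD_le (v : List ℕ → ℝ) (n : ℕ) (C : ℝ) (hC : 0 ≤ C)
    (h : ∀ q : List ℕ, q.length ≤ n → |G v q| ≤ C) (q : List ℕ) (hq : q.length ≤ n) :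
    |G (offD D v) q| ≤ 2 * C := by
  have h1 := abs_G_onD_le hD v n C hC h q hq
  have h2 := h q hq
  have h3 := G_add (onD D v) (offD D v) q
  rw [onD_add_offD] at h3
  have h4 : G (offD D v) q = G v q - G (onD D v) q := by linarith
  rw [h4]
  calc |G v q - G (onD D v) q| ≤ |G v q| + |G (onD D v) q| := abs_sub _ _
    _ ≤ C + C := add_le_add h2 h1
    _ = 2 * C := by ring

include hD in
lemma T_zero (u v : List ℕ → ℝ) (q : List ℕ) (hq : q ∈ D) : T D u v q = 0 := by
  cases q with
  | nil =>
    simp only [T, dG]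
    rw [G_offD_eq_zero hD v _ hq, phi_zero]
  | cons a l =>
    simp only [T, dG]
    rw [G_offD_eq_zero hD v _ hq, G_offD_eq_zero hD v _ (hD a l hq), phi_zero, phi_zero,
      sub_zero]

include hD in
lemma abs_T_le (u v : List ℕ → ℝ) (q : List ℕ) : |T D u v q| ≤ |v q| := by
  by_cases hq : q ∈ D
  · rw [T_zero hD u v q hq]; simp
  · cases q with
    | nil =>
      simp only [T, dG]
      refine (abs_phi_le _ _).trans ?_
      simp [offD, hq]
    | cons a l =>
      simp only [T, dG]
      have h1 : G (onD D u) (a :: l) = G (onD D u) l := by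
        rw [G_cons]
        simp [onD, hq]
      rw [h1]
      refine (abs_phi_sub _ _ _).trans ?_
      rw [G_cons]
      simp [offD, hq]

end Vale.Agent.P069
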