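import Vale.Agent.P069.Key

open scoped ENNReal lp
open Filter Topology NormedSpace

noncomputable section

namespace Vale.Agent.P069

lemma H_hasSum (u : H) : HasSum (fun q => (u q) ^ 2) (‖u‖ ^ 2) := by
  have h := lp.hasSum_norm (E := fun _ : List ℕ => ℝ) (p := 2) (by norm_num) u
  simpa using h

lemma H_norm_sq_le {w u v : H} {β : ℝ}
    (h : ∀ q, (w q) ^ 2 ≤ (u q) ^ 2 + β ^ 2 * (v q) ^ 2) :
    ‖w‖ ^ 2 ≤ ‖u‖ ^ 2 + β ^ 2 * ‖v‖ ^ 2 :=
  hasSum_le h (H_hasSum w) ((H_hasSum u).add ((H_hasSum v).mul_left (β ^ 2)))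

lemma V_hasSum (z : Z) : HasSum (fun n => ‖z n‖ ^ 2) (‖z‖ ^ 2) := by
  have h := lp.hasSum_norm (E := fun _ : ℕ => V) (p := 2) (by norm_num) z
  simpa using h

lemma Z_norm_sq_le {w u v : Z} {c : ℝ}
    (h : ∀ n, ‖w n‖ ^ 2 ≤ ‖u n‖ ^ 2 + c * ‖v n‖ ^ 2) :
    ‖w‖ ^ 2 ≤ ‖u‖ ^ 2 + c * ‖v‖ ^ 2 :=
  hasSum_le h (V_hasSum w) ((V_hasSum u).add ((V_hasSum v).mul_left c))

lemma memℓp_of_sq {w : ℕ → V} {v : Z} {c : ℝ} (h : ∀ n, ‖w n‖ ^ 2 ≤ c * ‖v n‖ ^ 2) :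
    Memℓp w 2 := by
  apply memℓp_gen
  have h1 : Summable fun n => c * ‖v n‖ ^ 2 := ((V_hasSum v).mul_left c).summable
  have h2 : Summable fun n => ‖w n‖ ^ 2 :=
    Summable.of_nonneg_of_le (fun n => by positivity) h h1
  simpa using h2

variable (D : Finset (List ℕ)) (hD : ∀ a l, a :: l ∈ D → l ∈ D)

include hD in
lemma T_mem (u : List ℕ → ℝ) (v : H) : Memℓp (E := fun _ : List ℕ => ℝ) (T D u v) 2 := by
  apply memℓp_gen
  have h1 : Summable fun q => (v q) ^ 2 := (H_hasSum v).summable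
  have h2 : Summable fun q => (T D u v q) ^ 2 := by
    refine Summable.of_nonneg_of_le (fun n => by positivity) (fun q => ?_) h1
    exact sq_le_sq.2 (abs_T_le hD u v q)
  simpa using h2

def TH (u : List ℕ → ℝ) (v : H) : H := ⟨T D u v, T_mem D hD u v⟩

lemma TH_apply (u : List ℕ → ℝ) (v : H) (q : List ℕ) : TH D hD u v q = T D u v q := rfl

lemma PD_coe (u : H) : (⇑(PD D u) : List ℕ → ℝ) = onD D u := by
  funext q
  rw [PD_apply]; rfl

lemma TH_sub (u : List ℕ → ℝ) (v : H) : TH D hD u v - TH D hD u (-v) = v - PD D v := by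
  ext q
  change T D u v q - T D u (⇑(-v)) q = v q - (PD D v) q
  rw [lp.coeFn_neg, T_sub, PD_apply]
  unfold offD
  split_ifs <;> simp

lemma PD_TH (u : List ℕ → ℝ) (v : H) : PD D (TH D hD u v) = 0 := by
  ext q
  rw [PD_apply]
  split_ifs with hq
  · rw [TH_apply, T_zero hD _ _ _ hq]; rfl
  · rfl

lemma norm_comb_sq (u v : H) (β : ℝ) :
    ‖PD D u + β • TH D hD u v‖ ^ 2 ≤ ‖u‖ ^ 2 + β ^ 2 * ‖v‖ ^ 2 := by
  apply H_norm_sq_le
  intro q
  change ((PD D u) q + β * T D u v q) ^ 2 ≤ _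
  rw [PD_apply]
  split_ifs with hq
  · rw [T_zero hD _ _ _ hq]
    have : 0 ≤ β ^ 2 * (v q) ^ 2 := by positivity
    simpa using this
  · have h1 : (T D u v q) ^ 2 ≤ (v q) ^ 2 := sq_le_sq.2 (abs_T_le hD u v q)
    have h2 : β ^ 2 * (T D u v q) ^ 2 ≤ β ^ 2 * (v q) ^ 2 :=
      mul_le_mul_of_nonneg_left h1 (by positivity)
    nlinarith [sq_nonneg (u q)]

lemma G_bound (n : ℕ) (u : H) (q : List ℕ) (hq : q.length ≤ n) : |G u q| ≤ ‖Gam n u‖ := by
  have := W_apply_le (Gam n u) q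
  rw [Gam_apply] at this
  unfold trunc at this
  rwa [if_pos hq] at this

lemma Gam_comb_sq (n : ℕ) (u v : H) (β : ℝ) (hβ : 0 ≤ β) :
    ‖Gam n (PD D u + β • TH D hD u v)‖ ^ 2 ≤ ‖Gam n u‖ ^ 2 + β ^ 2 * (4 * ‖Gam n v‖ ^ 2) := by
  set A := ‖Gam n u‖ with hA
  set B := ‖Gam n v‖ with hB
  have hA0 : 0 ≤ A := norm_nonneg _
  have hB0 : 0 ≤ B := norm_nonneg _
  have key : ‖Gam n (PD D u + β • TH D hD u v)‖ ≤ Real.sqrt (A ^ 2 + β ^ 2 * (4 * B ^ 2)) := by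
    apply lp.norm_le_of_forall_le (Real.sqrt_nonneg _)
    intro q
    rw [Gam_apply]
    unfold trunc
    split_ifs with hq
    · rw [Real.norm_eq_abs]
      apply Real.abs_le_sqrt
      have e : (⇑(PD D u + β • TH D hD u v) : List ℕ → ℝ)
          = onD D u + β • T D u v := by
        rw [lp.coeFn_add, lp.coeFn_smul, PD_coe]; rfl
      rw [e, G_add, G_smul]
      unfold T
      rw [G_dG]
      refine (sq_add_phi_le _ _ _ hβ).trans ?_
      have h1 := abs_G_onD_le hD u n A hA0 (fun q hq => G_bound n u q hq) q hq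
      have h2 := abs_G_offD_le hD v n B hB0 (fun q hq => G_bound n v q hq) q hq
      have h3 : (G (onD D u) q) ^ 2 ≤ A ^ 2 := by
        rw [← sq_abs]
        exact pow_le_pow_left₀ (abs_nonneg _) h1 2
      have h4 : (G (offD D v) q) ^ 2 ≤ (2 * B) ^ 2 := by
        rw [← sq_abs]
        exact pow_le_pow_left₀ (abs_nonneg _) h2 2
      have h5 : β ^ 2 * (G (offD D v) q) ^ 2 ≤ β ^ 2 * (2 * B) ^ 2 :=
        mul_le_mul_of_nonneg_left h4 (by positivity)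
      nlinarith
    · simp only [norm_zero]; exact Real.sqrt_nonneg _
  calc _ ≤ (Real.sqrt (A ^ 2 + β ^ 2 * (4 * B ^ 2))) ^ 2 :=
        pow_le_pow_left₀ (norm_nonneg _) key 2
    _ = _ := Real.sq_sqrt (by positivity)

lemma emb_comb_sq (n : ℕ) (u v : H) (β : ℝ) (hβ : 0 ≤ β) :
    ‖emb n (PD D u + β • TH D hD u v)‖ ^ 2 ≤ ‖emb n u‖ ^ 2 + 4 * β ^ 2 * ‖emb n v‖ ^ 2 := by
  rw [norm_emb_sq, norm_emb_sq, norm_emb_sq]
  have h1 := norm_comb_sq D hD u v β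
  have h2 := Gam_comb_sq D hD n u v β hβ
  have h3 : 0 ≤ β ^ 2 * ‖v‖ ^ 2 := by positivity
  nlinarith

lemma emb_TH_sq (n : ℕ) (u v : H) :
    ‖emb n (TH D hD u v)‖ ^ 2 ≤ 4 * ‖emb n v‖ ^ 2 := by
  rw [norm_emb_sq, norm_emb_sq]
  have h1 : ‖TH D hD u v‖ ^ 2 ≤ ‖v‖ ^ 2 := by
    have := H_norm_sq_le (w := TH D hD u v) (u := 0) (v := v) (β := 1) (by
      intro q
      rw [TH_apply]
      have := sq_le_sq.2 (abs_T_le hD u v q)
      simpa using this)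
    simpa using this
  have h2 : ‖Gam n (TH D hD u v)‖ ≤ 2 * ‖Gam n v‖ := by
    apply lp.norm_le_of_forall_le (by positivity)
    intro q
    rw [Gam_apply]
    unfold trunc
    split_ifs with hq
    · rw [Real.norm_eq_abs]
      change |G (T D u v) q| ≤ _
      unfold T
      rw [G_dG]
      refine (abs_phi_le _ _).trans ?_
      exact abs_G_offD_le hD v n _ (norm_nonneg _) (fun q hq => G_bound n v q hq) q hq
    · simp only [norm_zero]; positivity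
  have h3 : ‖Gam n (TH D hD u v)‖ ^ 2 ≤ (2 * ‖Gam n v‖) ^ 2 :=
    pow_le_pow_left₀ (norm_nonneg _) h2 2
  have h4 : 0 ≤ ‖v‖ ^ 2 := by positivity
  nlinarith

end Vale.Agent.P069
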