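import Vale.Agent.P069.NonAucAbs
import Vale.Agent.P069.KeyH

open Filter Topology NormedSpace
open scoped ENNReal lp

noncomputable section

namespace Vale.Agent.P069

def riesz : H →L[ℝ] StrongDual ℝ H :=
  LinearMap.mkContinuous
    { toFun := fun h => InnerProductSpace.toDual ℝ H h
      map_add' := by intro a b; simp
      map_smul' := by intro a b; simp } 1 (by intro h; simp)

def fnl (n : ℕ) : H →L[ℝ] StrongDual ℝ E := (dualMap (pr n)).comp riesz

lemma fnl_apply (n : ℕ) (h : H) (z : E) : fnl n h z = inner ℝ h (pr n z) := rfl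

def basisH (l : List ℕ) : H := lp.single (E := fun _ : List ℕ => ℝ) 2 l (1 : ℝ)

lemma basisH_apply (l q : List ℕ) : (basisH l) q = if q = l then 1 else 0 := by
  unfold basisH
  split_ifs with h
  · subst h; rw [lp.single_apply_self]
  · rw [lp.single_apply_ne _ _ _ h]

lemma inner_basisH (l : List ℕ) (h : H) : inner ℝ (basisH l) h = h l := by
  unfold basisH
  rw [lp.inner_single_left]
  simp

def node (n : ℕ) (l : List ℕ) : StrongDual ℝ E := fnl n (basisH l)

lemma node_apply (n : ℕ) (l : List ℕ) (z : E) : node n l z = (pr n z) l := by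
  unfold node
  rw [fnl_apply, inner_basisH]

def branch (n : ℕ) : List ℕ → StrongDual ℝ E
  | [] => node n []
  | a :: l => branch n l + node n (a :: l)

lemma branch_apply (n : ℕ) (l : List ℕ) (z : E) : branch n l z = G (pr n z) l := by
  induction l with
  | nil => exact node_apply n [] z
  | cons a l ih =>
    change branch n l z + node n (a :: l) z = _
    rw [ih, node_apply, G_cons]; ring

lemma norm_comp_le (n : ℕ) (z : E) : ‖Gam n (pr n z)‖ ≤ ‖z‖ := by
  have h1 : ‖((z : Z) n)‖ ≤ ‖(z : Z)‖ := lp.norm_apply_le_norm (p := 2) (by norm_num) _ n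
  have h2 := norm_emb_sq n (pr n z)
  have h3 : emb n (pr n z) = (z : Z) n := by
    rw [pr_apply, emb_fst_eq z.2]
  rw [h3] at h2
  have h4 : ‖Gam n (pr n z)‖ ^ 2 ≤ ‖((z : Z) n)‖ ^ 2 := by nlinarith [sq_nonneg ‖pr n z‖]
  exact (le_of_sq_le_sq h4 (norm_nonneg _)).trans h1

lemma norm_branch_le (n : ℕ) (l : List ℕ) (hl : l.length ≤ n) : ‖branch n l‖ ≤ 1 := by
  apply ContinuousLinearMap.opNorm_le_bound _ zero_le_one
  intro z
  rw [branch_apply, one_mul, Real.norm_eq_abs]
  exact (G_bound n (pr n z) l hl).trans (norm_comp_le n z)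

lemma G_basisH (l q : List ℕ) : G (basisH l) q = if l <:+ q then 1 else 0 := by
  induction q with
  | nil =>
    rw [G_nil, basisH_apply]
    by_cases h : l = []
    · subst h; simp
    · have h' : ¬ ([] = l) := fun h2 => h h2.symm
      rw [if_neg h', if_neg]
      rw [List.suffix_nil]; exact h
  | cons a t ih =>
    rw [G_cons, ih, basisH_apply]
    by_cases h1 : a :: t = l
    · have h2 : ¬ (l <:+ t) := by
        intro h3
        have := h3.length_le
        rw [← h1] at this
        simp at this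
      have h4 : l <:+ a :: t := by rw [h1]
      rw [if_pos h1, if_neg h2, if_pos h4, add_zero]
    · rw [if_neg h1, zero_add]
      have : l <:+ a :: t ↔ l <:+ t := by
        rw [List.suffix_cons_iff]
        constructor
        · rintro (h | h)
          · exact absurd h.symm h1
          · exact h
        · exact Or.inr
      simp only [this]

lemma norm_basisH (l : List ℕ) : ‖basisH l‖ = 1 := by
  unfold basisH
  rw [lp.norm_single (by norm_num)]
  simp

lemma norm_iota_basis (n : ℕ) (l : List ℕ) : ‖iota n (basisH l)‖ ≤ 2 := by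
  change ‖((iota n (basisH l) : E) : Z)‖ ≤ 2
  rw [iota_coe, lp.norm_single (by norm_num)]
  have h1 := norm_emb_sq n (basisH l)
  have h2 : ‖Gam n (basisH l)‖ ≤ 1 := by
    apply lp.norm_le_of_forall_le zero_le_one
    intro q
    rw [Gam_apply]
    unfold trunc
    rw [G_basisH]
    split_ifs <;> simp
  rw [norm_basisH] at h1
  have h3 : ‖Gam n (basisH l)‖ ^ 2 ≤ 1 := by
    have := pow_le_pow_left₀ (norm_nonneg _) h2 2
    simpa using this
  have h4 : ‖emb n (basisH l)‖ ^ 2 ≤ 2 ^ 2 := by linarith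
  exact le_of_sq_le_sq h4 (by norm_num)

lemma norm_node_ge (n : ℕ) (l : List ℕ) : 1 / 2 ≤ ‖node n l‖ := by
  have h1 := (node n l).le_opNorm (iota n (basisH l))
  rw [node_apply] at h1
  have h2 : pr n (iota n (basisH l)) = basisH l := by
    rw [pr_apply, iota_coe, lp.single_apply_self]; rfl
  rw [h2, basisH_apply, if_pos rfl] at h1
  have h3 := norm_iota_basis n l
  have h4 : ‖node n l‖ * ‖iota n (basisH l)‖ ≤ ‖node n l‖ * 2 :=
    mul_le_mul_of_nonneg_left h3 (norm_nonneg (E := StrongDual ℝ E) _)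
  rw [norm_one] at h1
  linarith

lemma node_weak (n : ℕ) (l : List ℕ) (φ : StrongDual ℝ (StrongDual ℝ E)) :
    Tendsto (fun a : ℕ => φ (node n (a :: l))) atTop (𝓝 0) := by
  obtain ⟨g, hg⟩ := (InnerProductSpace.toDual ℝ H).surjective (φ.comp (fnl n))
  have h1 : ∀ a : ℕ, φ (node n (a :: l)) = g (a :: l) := by
    intro a
    have : φ (node n (a :: l)) = (φ.comp (fnl n)) (basisH (a :: l)) := rfl
    rw [this, ← hg, InnerProductSpace.toDual_apply_apply, real_inner_comm, inner_basisH]
  simp only [h1]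
  have h2 : Summable fun q : List ℕ => (g q) ^ 2 := (H_hasSum g).summable
  have h3 : Function.Injective (fun a : ℕ => a :: l) := fun a b h => by
    simpa using h
  have h4 := (h2.comp_injective h3).tendsto_atTop_zero
  have h5 := (Real.continuous_sqrt.tendsto 0).comp h4
  rw [Real.sqrt_zero] at h5
  have h6 : Tendsto (fun a : ℕ => |g (a :: l)|) atTop (𝓝 0) := by
    refine h5.congr fun a => ?_
    simp [Real.sqrt_sq_eq_abs]
  exact (tendsto_zero_iff_abs_tendsto_zero _).2 h6

theorem not_auc_abs {X : Type*} [NormedAddCommGroup X] [NormedSpace ℝ X]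
    (node branch : ℕ → List ℕ → X)
    (hb0 : ∀ n, branch n [] = node n [])
    (hbs : ∀ n a l, branch n (a :: l) = branch n l + node n (a :: l))
    (hnn : ∀ n l, 1 / 2 ≤ ‖node n l‖)
    (hbn : ∀ n (l : List ℕ), l.length ≤ n → ‖branch n l‖ ≤ 1)
    (hw : ∀ n (l : List ℕ) (φ : StrongDual ℝ X),
      Tendsto (fun a : ℕ => φ (node n (a :: l))) atTop (𝓝 0))
    (N : Seminorm ℝ X) (hN : IsEquivalentNorm N) : ¬ IsAUC N := by
  intro hauc
  obtain ⟨c, C, hc, hC, hcC⟩ := hN
  have hc' : 0 < c / 2 := by positivity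
  obtain ⟨δ, hδ, hδ2⟩ := auc_unpack N ((c / 2) / (2 * C)) (hauc _ (by positivity))
  have hnode : ∀ n l, c / 2 ≤ N (node n l) := by
    intro n l
    refine le_trans ?_ (hcC (node n l)).1
    have := mul_le_mul_of_nonneg_left (hnn n l) hc.le
    linarith
  have hbr : ∀ n (l : List ℕ), l.length ≤ n → N (branch n l) ≤ C := by
    intro n l hl
    refine (hcC (branch n l)).2.trans ?_
    have := mul_le_mul_of_nonneg_left (hbn n l hl) hC.le
    linarith
  have hpow1 : ∀ k : ℕ, 1 ≤ (1 + δ / 2) ^ k := fun k => one_le_pow₀ (by linarith)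
  have main : ∀ n k : ℕ, k ≤ n → ∃ l : List ℕ, l.length = k ∧
      c / 2 * (1 + δ / 2) ^ k ≤ N (branch n l) := by
    intro n k
    induction k with
    | zero =>
      intro _
      refine ⟨[], rfl, ?_⟩
      rw [pow_zero, mul_one, hb0]
      exact hnode n []
    | succ k ih =>
      intro hk
      obtain ⟨l, hl, hlN⟩ := ih (by omega)
      have hx1 : c / 2 ≤ N (branch n l) := by
        refine le_trans ?_ hlN
        have := mul_le_mul_of_nonneg_left (hpow1 k) hc'.le
        linarith
      obtain ⟨a, ha⟩ := auc_step N C (c / 2) δ hC hc' hδ (fun x => (hcC x).2) hδ2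
        (branch n l) hx1 (hbr n l (by omega)) (fun a => node n (a :: l)) (hw n l)
        (fun a => hnode n _)
      refine ⟨a :: l, by simp [hl], ?_⟩
      rw [hbs]
      refine le_trans ?_ ha
      rw [pow_succ, ← mul_assoc]
      exact mul_le_mul_of_nonneg_right hlN (by positivity)
  obtain ⟨n, hn⟩ := pow_unbounded_of_one_lt (C / (c / 2)) (by linarith : 1 < 1 + δ / 2)
  obtain ⟨l, hl, hlN⟩ := main n n le_rfl
  have h1 := hbr n l hl.le
  rw [div_lt_iff₀ hc'] at hn
  linarith

end Vale.Agent.P069
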