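import Vale.Agent.P069.Defs

open Filter Topology NormedSpace

noncomputable section

namespace Vale.Agent.P069

variable {X : Type*} [NormedAddCommGroup X] [NormedSpace ℝ X]

lemma auc_unpack (N : Seminorm ℝ X) (t : ℝ) (h : 0 < aucModulus N t) :
    ∃ δ : ℝ, 0 < δ ∧ ∀ x : X, N x = 1 → ∃ F ∈ Cof X, ∀ y ∈ F, N y = 1 →
      1 + δ ≤ N (x + t • y) := by
  obtain ⟨δ, h0, h1⟩ := EReal.lt_iff_exists_real_btwn.1 h
  refine ⟨δ, EReal.coe_pos.1 h0, fun x hx => ?_⟩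
  unfold aucModulus at h1
  have h2 : (δ : EReal) < ⨆ F ∈ Cof X, ⨅ y ∈ F, ⨅ _ : N y = 1,
      ((N (x + t • y) - 1 : ℝ) : EReal) :=
    lt_of_lt_of_le h1 ((iInf_le _ x).trans (iInf_le _ hx))
  obtain ⟨F, hF⟩ := lt_iSup_iff.1 h2
  obtain ⟨hFc, hF2⟩ := lt_iSup_iff.1 hF
  refine ⟨F, hFc, fun y hy hy1 => ?_⟩
  have h3 : (δ : EReal) < ((N (x + t • y) - 1 : ℝ) : EReal) :=
    lt_of_lt_of_le hF2 (((iInf_le _ y).trans (iInf_le _ hy)).trans (iInf_le _ hy1))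
  have h4 := EReal.coe_lt_coe_iff.1 h3
  linarith

lemma near_cof (F : Submodule ℝ X) (hF : F ∈ Cof X) (z : ℕ → X)
    (hz : ∀ φ : StrongDual ℝ X, Tendsto (fun a => φ (z a)) atTop (𝓝 0))
    (ε : ℝ) (hε : 0 < ε) : ∃ a : ℕ, ∃ y ∈ F, ‖z a - y‖ < ε := by
  obtain ⟨hcl, hfd⟩ := hF
  have : IsClosed (F : Set X) := hcl
  have := hfd
  let e := (Module.finBasis ℝ (X ⧸ F)).equivFun.toContinuousLinearEquiv
  have h1 : Tendsto (fun a => e (F.mkQ (z a))) atTop (𝓝 0) := by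
    rw [tendsto_pi_nhds]
    intro i
    have h2 := hz (((ContinuousLinearMap.proj (R := ℝ)
      (φ := fun _ : Fin (Module.finrank ℝ (X ⧸ F)) => ℝ) i).comp
        (e : (X ⧸ F) →L[ℝ] _)).comp F.mkQL)
    exact h2
  have h3 : Tendsto (fun a => F.mkQ (z a)) atTop (𝓝 0) := by
    have h4 := (e.symm.continuous.tendsto 0).comp h1
    simpa [Function.comp_def] using h4
  have h5 := (tendsto_zero_iff_norm_tendsto_zero.1 h3).eventually (gt_mem_nhds hε)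
  obtain ⟨a, ha⟩ := h5.exists
  obtain ⟨w, hw, hw2⟩ := Submodule.Quotient.norm_mk_lt (F.mkQ (z a)) (sub_pos.2 ha)
  refine ⟨a, z a - w, ?_, ?_⟩
  · rw [← Submodule.Quotient.mk_eq_zero F, Submodule.Quotient.mk_sub, hw]
    simp
  · rw [sub_sub_cancel]
    linarith

lemma auc_step (N : Seminorm ℝ X) (C c' δ : ℝ) (hC : 0 < C) (hc' : 0 < c') (hδ : 0 < δ)
    (hN : ∀ x, N x ≤ C * ‖x‖)
    (hauc : ∀ x : X, N x = 1 → ∃ F ∈ Cof X, ∀ y ∈ F, N y = 1 →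
      1 + δ ≤ N (x + (c' / (2 * C)) • y))
    (x : X) (hx1 : c' ≤ N x) (hx2 : N x ≤ C) (z : ℕ → X)
    (hz : ∀ φ : StrongDual ℝ X, Tendsto (fun a => φ (z a)) atTop (𝓝 0))
    (hzN : ∀ a, c' ≤ N (z a)) :
    ∃ a, N x * (1 + δ / 2) ≤ N (x + z a) := by
  set ρ := N x with hρ
  have hρ0 : 0 < ρ := lt_of_lt_of_le hc' hx1
  set τ := c' / (2 * C) with hτ
  have hτ0 : 0 < τ := by positivity
  have hN1 : N (ρ⁻¹ • x) = 1 := by
    rw [map_smul_eq_mul, Real.norm_of_nonneg (by positivity), ← hρ]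
    exact inv_mul_cancel₀ hρ0.ne'
  obtain ⟨F, hF, hFy⟩ := hauc (ρ⁻¹ • x) hN1
  set κ := min (c' / 2) (c' * δ / 2) with hκ
  have hκ0 : 0 < κ := lt_min (by positivity) (by positivity)
  obtain ⟨a, y, hy, hzy⟩ := near_cof F hF z hz (κ / C) (by positivity)
  have hNzy : N (z a - y) ≤ κ := by
    refine (hN _).trans ?_
    have : C * ‖z a - y‖ ≤ C * (κ / C) := mul_le_mul_of_nonneg_left hzy.le hC.le
    rwa [mul_div_cancel₀ _ hC.ne'] at this
  have hNy : c' / 2 ≤ N y := by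
    have h1 : N (z a) ≤ N (z a - y) + N y := by
      have := map_add_le_add N (z a - y) y
      rwa [sub_add_cancel] at this
    have h2 := hzN a
    have h3 : κ ≤ c' / 2 := min_le_left _ _
    linarith
  set s₀ := N y with hs₀
  have hs₀0 : 0 < s₀ := by linarith
  have hNy1 : N (s₀⁻¹ • y) = 1 := by
    rw [map_smul_eq_mul, Real.norm_of_nonneg (by positivity), ← hs₀]
    exact inv_mul_cancel₀ hs₀0.ne'
  have key := hFy (s₀⁻¹ • y) (F.smul_mem _ hy) hNy1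
  set s := s₀ / ρ with hs
  have hs0 : 0 < s := by positivity
  have hτs : τ ≤ s := by
    rw [hτ, hs, div_le_div_iff₀ (by positivity) hρ0]
    nlinarith
  set θ := τ / s with hθ
  have hθ0 : 0 < θ := by positivity
  have hθ1 : θ ≤ 1 := (div_le_one hs0).2 hτs
  have hdecomp : ρ⁻¹ • x + τ • (s₀⁻¹ • y)
      = (1 - θ) • (ρ⁻¹ • x) + θ • (ρ⁻¹ • (x + y)) := by
    have e1 : θ * ρ⁻¹ = τ * s₀⁻¹ := by
      rw [hθ, hs]; field_simp
    rw [smul_add, smul_add, smul_smul, smul_smul, smul_smul, smul_smul, e1, sub_mul, one_mul,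
      sub_smul, e1, ← add_assoc, sub_add_cancel]
  have hconv : N (ρ⁻¹ • x + τ • (s₀⁻¹ • y)) ≤ (1 - θ) + θ * (ρ⁻¹ * N (x + y)) := by
    rw [hdecomp]
    refine (map_add_le_add N _ _).trans ?_
    rw [map_smul_eq_mul N (1 - θ), hN1, map_smul_eq_mul N θ, map_smul_eq_mul N ρ⁻¹,
      Real.norm_of_nonneg (by linarith : 0 ≤ 1 - θ), Real.norm_of_nonneg hθ0.le,
      Real.norm_of_nonneg (by positivity : 0 ≤ ρ⁻¹)]
    linarith
  have h6 : δ + θ ≤ θ * (ρ⁻¹ * N (x + y)) := by linarith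
  have h7 : 1 + δ ≤ ρ⁻¹ * N (x + y) := by
    have : θ * (1 + δ) ≤ θ * (ρ⁻¹ * N (x + y)) := by nlinarith
    exact le_of_mul_le_mul_left this hθ0
  have h8 : ρ * (1 + δ) ≤ N (x + y) := by
    have := mul_le_mul_of_nonneg_left h7 hρ0.le
    rwa [← mul_assoc, mul_inv_cancel₀ hρ0.ne', one_mul] at this
  refine ⟨a, ?_⟩
  have h9 : N (x + y) ≤ N (x + z a) + N (z a - y) := by
    have := map_sub_le_add N (x + z a) (z a - y)
    have e : x + z a - (z a - y) = x + y := by abel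
    rwa [e] at this
  have h10 : κ ≤ c' * δ / 2 := min_le_right _ _
  nlinarith

end Vale.Agent.P069
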