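import Vale.Agent.P069.Sep

open Filter Topology NormedSpace

namespace Vale.Agent.P069

theorem equiv_self {X : Type*} [NormedAddCommGroup X] [NormedSpace ℝ X] :
    IsEquivalentNorm (normSeminorm ℝ X) := by
  refine ⟨1, 1, one_pos, one_pos, fun x => ?_⟩
  rw [coe_normSeminorm]
  constructor <;> linarith

theorem pack {X : Type} [NormedAddCommGroup X] [NormedSpace ℝ X] (hc : CompleteSpace X)
    (hsep : TopologicalSpace.SeparableSpace X)
    (hrefl : Function.Surjective (NormedSpace.inclusionInDoubleDual ℝ X))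
    (hmod : ∀ t : ℝ, 0 < t →
      ((Real.sqrt (1 + t ^ 2 / 16) - 1 : ℝ) : EReal) ≤ amucModulus (normSeminorm ℝ X) t)
    (hnot : ∀ N : Seminorm ℝ X, IsEquivalentNorm N → ¬ IsAUC N) :
    ∃ (X : Type) (_ : NormedAddCommGroup X) (_ : NormedSpace ℝ X),
      CompleteSpace X ∧ ¬ FiniteDimensional ℝ X ∧ TopologicalSpace.SeparableSpace X ∧
      IsReflexive X ∧
      (∀ t : ℝ, 0 < t →
        ((Real.sqrt (1 + t ^ 2 / 16) - 1 : ℝ) : EReal) ≤ amucModulus (normSeminorm ℝ X) t) ∧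
      AMUCRenormable X ∧ ¬ AUCRenormable X := by
  refine ⟨X, inferInstance, inferInstance, hc,
    infinite_of_not_auc (hnot _ equiv_self), hsep, fun φ => ?_, hmod,
    ⟨_, equiv_self, fun t ht => ?_⟩, fun ⟨N, hN, hN2⟩ => hnot N hN hN2⟩
  · obtain ⟨x, hx⟩ := hrefl φ
    exact ⟨x, fun f => by rw [← hx, NormedSpace.dual_def]⟩
  refine lt_of_lt_of_le ?_ (hmod t ht)
  rw [EReal.coe_pos]
  have h0 : 0 < t ^ 2 / 16 := by positivity
  have h1 : Real.sqrt 1 < Real.sqrt (1 + t ^ 2 / 16) :=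
    Real.sqrt_lt_sqrt zero_le_one (by linarith)
  rw [Real.sqrt_one] at h1
  linarith

theorem dual_pack {E : Type} [NormedAddCommGroup E] [NormedSpace ℝ E] (hgood : Good E)
    (hsep : TopologicalSpace.SeparableSpace (StrongDual ℝ E))
    (hrefl : Function.Surjective (NormedSpace.inclusionInDoubleDual ℝ (StrongDual ℝ E)))
    (node branch : ℕ → List ℕ → StrongDual ℝ E)
    (hb0 : ∀ n, branch n [] = node n [])
    (hbs : ∀ n a l, branch n (a :: l) = branch n l + node n (a :: l))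
    (hnn : ∀ n l, 1 / 2 ≤ ‖node n l‖)
    (hbn : ∀ n (l : List ℕ), l.length ≤ n → ‖branch n l‖ ≤ 1)
    (hw : ∀ n (l : List ℕ) (φ : StrongDual ℝ (StrongDual ℝ E)),
      Tendsto (fun a : ℕ => φ (node n (a :: l))) atTop (𝓝 0)) :
    ∃ (X : Type) (_ : NormedAddCommGroup X) (_ : NormedSpace ℝ X),
      CompleteSpace X ∧ ¬ FiniteDimensional ℝ X ∧ TopologicalSpace.SeparableSpace X ∧
      IsReflexive X ∧
      (∀ t : ℝ, 0 < t →
        ((Real.sqrt (1 + t ^ 2 / 16) - 1 : ℝ) : EReal) ≤ amucModulus (normSeminorm ℝ X) t) ∧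
      AMUCRenormable X ∧ ¬ AUCRenormable X :=
  pack (X := StrongDual ℝ E) inferInstance hsep hrefl (fun t ht => amuc_modulus hgood t ht)
    (fun N hN => not_auc_abs node branch hb0 hbs hnn hbn hw N hN)

end Vale.Agent.P069
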