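import Vale.Agent.P069.NonAuc
import Vale.Agent.P069.AmucMod

open Filter Topology NormedSpace
open scoped ENNReal lp

noncomputable section

namespace Vale.Agent.P069

lemma single_eq_smul (t : List ℕ) (c : ℝ) :
    lp.single (E := fun _ : List ℕ => ℝ) 2 t c = c • basisH t := by
  unfold basisH
  rw [← lp.single_smul]
  simp

lemma dualP_eq (m : ℕ) (D : Finset (List ℕ)) (x : StrongDual ℝ E) :
    dualMap (P m D) x
      = ∑ n ∈ Finset.range m, ∑ t ∈ D, x (iota n (basisH t)) • node n t := by
  ext z
  rw [dualMap_apply]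
  unfold P
  rw [sum_apply, map_sum, sum_apply]
  apply Finset.sum_congr rfl
  intro n _
  rw [sum_apply]
  change x (iota n (PD D (pr n z))) = _
  rw [PD_eq_sum, map_sum, map_sum]
  apply Finset.sum_congr rfl
  intro t _
  rw [single_eq_smul, map_smul, map_smul, smul_apply, node_apply, smul_eq_mul, smul_eq_mul]
  ring

theorem X_separable : TopologicalSpace.SeparableSpace (StrongDual ℝ E) := by
  let Y : Submodule ℝ (StrongDual ℝ E) :=
    Submodule.span ℝ (Set.range (fun p : ℕ × List ℕ => node p.1 p.2))
  have hY : TopologicalSpace.IsSeparable (Y : Set (StrongDual ℝ E)) :=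
    (Set.countable_range _).isSeparable.span
  have hYc := hY.closure
  have huniv : closure (Y : Set (StrongDual ℝ E)) = Set.univ := by
    rw [Set.eq_univ_iff_forall]
    intro x
    rw [Metric.mem_closure_iff (α := StrongDual ℝ E)]
    intro ε hε
    obtain ⟨m, D, _, h⟩ := exists_approx x (ε / 2) (by positivity)
    refine ⟨dualMap (P m D) x, ?_, ?_⟩
    · rw [dualP_eq]
      apply Submodule.sum_mem
      intro n _
      apply Submodule.sum_mem
      intro t _
      apply Submodule.smul_mem
      apply Submodule.subset_span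
      exact ⟨(n, t), rfl⟩
    · have h6 : dist x (dualMap (P m D) x) = ‖x - dualMap (P m D) x‖ :=
        dist_eq_norm (E := StrongDual ℝ E) x _
      rw [h6]
      linarith
  rw [huniv] at hYc
  exact TopologicalSpace.isSeparable_univ_iff.1 hYc

theorem infinite_of_not_auc {X : Type*} [NormedAddCommGroup X] [NormedSpace ℝ X]
    (h : ¬ IsAUC (normSeminorm ℝ X)) : ¬ FiniteDimensional ℝ X := by
  intro hfin
  apply h
  intro t _
  unfold aucModulus
  have key : ∀ x : X, (⊤ : EReal) ≤ ⨅ _ : (normSeminorm ℝ X) x = 1, ⨆ F ∈ Cof X, ⨅ y ∈ F,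
      ⨅ _ : (normSeminorm ℝ X) y = 1, (((normSeminorm ℝ X) (x + t • y) - 1 : ℝ) : EReal) := by
    intro x
    refine le_iInf fun _ => ?_
    refine le_iSup₂_of_le (⊥ : Submodule ℝ X) ⟨?_, ?_⟩ ?_
    · exact isClosed_singleton
    · infer_instance
    · refine le_iInf₂ fun y hy => le_iInf fun hy1 => ?_
      rw [Submodule.mem_bot] at hy
      rw [hy, map_zero] at hy1
      exact absurd hy1 (by norm_num)
  exact lt_of_lt_of_le (by simp) (le_iInf key)

end Vale.Agent.P069
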