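import Vale.Agent.P069.Dec

open scoped ENNReal lp
open Filter Topology NormedSpace

noncomputable section

namespace Vale.Agent.P069

abbrev H : Type := lp (fun _ : List ℕ => ℝ) 2
abbrev W : Type := lp (fun _ : List ℕ => ℝ) ∞
abbrev V : Type := WithLp 2 (H × W)
abbrev Z : Type := lp (fun _ : ℕ => V) 2

def G (u : List ℕ → ℝ) : List ℕ → ℝ
  | [] => u []
  | a :: l => u (a :: l) + G u l

@[simp] lemma G_nil (u : List ℕ → ℝ) : G u [] = u [] := rfl
@[simp] lemma G_cons (u : List ℕ → ℝ) (a : ℕ) (l : List ℕ) :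
    G u (a :: l) = u (a :: l) + G u l := rfl

lemma G_add (u v : List ℕ → ℝ) (q : List ℕ) : G (u + v) q = G u q + G v q := by
  induction q with
  | nil => rfl
  | cons a l ih => simp only [G_cons, ih, Pi.add_apply]; ring

lemma G_smul (c : ℝ) (u : List ℕ → ℝ) (q : List ℕ) : G (c • u) q = c * G u q := by
  induction q with
  | nil => rfl
  | cons a l ih => simp only [G_cons, ih, Pi.smul_apply, smul_eq_mul]; ring

lemma abs_G_le (u : List ℕ → ℝ) (C : ℝ) (h : ∀ l, |u l| ≤ C) (q : List ℕ) :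
    |G u q| ≤ (q.length + 1) * C := by
  induction q with
  | nil => simpa using h []
  | cons a l ih =>
    simp only [G_cons, List.length_cons, Nat.cast_add, Nat.cast_one]
    have := h (a :: l)
    calc |u (a :: l) + G u l| ≤ |u (a :: l)| + |G u l| := abs_add_le _ _
      _ ≤ C + (l.length + 1) * C := add_le_add this ih
      _ = _ := by ring

lemma H_apply_le (u : H) (l : List ℕ) : |u l| ≤ ‖u‖ := by
  have := lp.norm_apply_le_norm (p := 2) (by norm_num) u l
  simpa using this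

lemma W_apply_le (u : W) (l : List ℕ) : |u l| ≤ ‖u‖ := by
  have := lp.norm_apply_le_norm (p := ∞) (by norm_num) u l
  simpa using this

def trunc (n : ℕ) (u : List ℕ → ℝ) (q : List ℕ) : ℝ := if q.length ≤ n then G u q else 0

lemma abs_trunc_le (n : ℕ) (u : List ℕ → ℝ) (C : ℝ) (hC : 0 ≤ C) (h : ∀ l, |u l| ≤ C)
    (q : List ℕ) : |trunc n u q| ≤ (n + 1) * C := by
  unfold trunc
  split_ifs with hq
  · refine (abs_G_le u C h q).trans ?_
    gcongr
  · simp only [abs_zero]; positivity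

lemma trunc_memℓp (n : ℕ) (u : H) : Memℓp (E := fun _ : List ℕ => ℝ) (trunc n u) ∞ := by
  apply memℓp_infty
  refine ⟨(n + 1) * ‖u‖, ?_⟩
  rintro _ ⟨q, rfl⟩
  exact abs_trunc_le n u ‖u‖ (norm_nonneg _) (H_apply_le u) q

def Gam (n : ℕ) : H →L[ℝ] W :=
  LinearMap.mkContinuous
    { toFun := fun u => ⟨trunc n u, trunc_memℓp n u⟩
      map_add' := by
        intro u v
        ext q
        change trunc n (⇑(u + v)) q = trunc n u q + trunc n v q
        unfold trunc
        rw [lp.coeFn_add, G_add]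
        split_ifs <;> simp
      map_smul' := by
        intro c u
        ext q
        change trunc n (⇑(c • u)) q = c • trunc n u q
        unfold trunc
        rw [lp.coeFn_smul, G_smul]
        split_ifs <;> simp } (n + 1) (by
    intro u
    apply lp.norm_le_of_forall_le (by positivity)
    intro q
    exact abs_trunc_le n u ‖u‖ (norm_nonneg _) (H_apply_le u) q)

lemma Gam_apply (n : ℕ) (u : H) (q : List ℕ) : (Gam n u) q = trunc n u q := rfl

def E : Submodule ℝ Z where
  carrier := {z | ∀ n, (z n).snd = Gam n (z n).fst}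
  add_mem' := by
    intro a b ha hb n
    rw [lp.coeFn_add, Pi.add_apply, WithLp.add_snd, WithLp.add_fst, map_add, ha n, hb n]
  zero_mem' := by
    intro n
    simp
  smul_mem' := by
    intro c a ha n
    rw [lp.coeFn_smul, Pi.smul_apply, WithLp.smul_snd, WithLp.smul_fst, map_smul, ha n]

def emb (n : ℕ) : H →L[ℝ] V :=
  ((WithLp.prodContinuousLinearEquiv 2 ℝ H W).symm : (H × W) →L[ℝ] V).comp
    ((ContinuousLinearMap.id ℝ H).prod (Gam n))

lemma emb_apply (n : ℕ) (u : H) : emb n u = WithLp.toLp 2 (u, Gam n u) := rfl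

@[simp] lemma emb_fst (n : ℕ) (u : H) : (emb n u).fst = u := rfl
@[simp] lemma emb_snd (n : ℕ) (u : H) : (emb n u).snd = Gam n u := rfl

lemma norm_emb_sq (n : ℕ) (u : H) : ‖emb n u‖ ^ 2 = ‖u‖ ^ 2 + ‖Gam n u‖ ^ 2 :=
  WithLp.prod_norm_sq_eq_of_L2 (emb n u)

lemma emb_fst_eq {z : Z} (hz : z ∈ E) (n : ℕ) : emb n (z n).fst = z n := by
  apply WithLp.ofLp_injective 2
  have := hz n
  ext1
  · rfl
  · exact this.symm

lemma single_mem (n : ℕ) (u : H) : lp.single 2 n (emb n u) ∈ E := by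
  intro k
  by_cases hk : k = n
  · subst hk
    rw [lp.single_apply_self]
    simp
  · rw [lp.single_apply_ne _ _ _ hk]
    simp

def iota (n : ℕ) : H →L[ℝ] E :=
  ((lp.singleContinuousLinearMap ℝ (fun _ : ℕ => V) 2 n).comp (emb n)).codRestrict E
    (fun u => single_mem n u)

lemma iota_coe (n : ℕ) (u : H) : ((iota n u : E) : Z) = lp.single 2 n (emb n u) := rfl

def pr (n : ℕ) : E →L[ℝ] H :=
  ((WithLp.fstL 2 ℝ H W).comp (lp.evalCLM ℝ (fun _ : ℕ => V) 2 n)).comp E.subtypeL

lemma pr_apply (n : ℕ) (z : E) : pr n z = ((z : Z) n).fst := rfl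

lemma iota_pr (n : ℕ) (z : E) : ((iota n (pr n z) : E) : Z) = lp.single 2 n ((z : Z) n) := by
  rw [iota_coe, pr_apply, emb_fst_eq z.2]

def S (m : ℕ) : E →L[ℝ] E := ∑ n ∈ Finset.range m, (iota n).comp (pr n)

lemma S_coe (m : ℕ) (z : E) :
    ((S m z : E) : Z) = ∑ n ∈ Finset.range m, lp.single 2 n ((z : Z) n) := by
  unfold S
  rw [sum_apply, Submodule.coe_sum]
  apply Finset.sum_congr rfl
  intro n _
  rw [ContinuousLinearMap.comp_apply, iota_pr]

lemma two_pow_eq (x : ℝ) : x ^ (2 : ℝ≥0∞).toReal = x ^ 2 := by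
  simp

lemma Z_norm_sum (m : ℕ) (z : Z) :
    ‖∑ n ∈ Finset.range m, lp.single 2 n (z n)‖ ^ 2 = ∑ n ∈ Finset.range m, ‖z n‖ ^ 2 := by
  have := lp.norm_sum_single (E := fun _ : ℕ => V) (p := 2) (by norm_num) (fun n => z n)
    (Finset.range m)
  simpa using this

lemma Z_norm_compl (m : ℕ) (z : Z) :
    ‖z - ∑ n ∈ Finset.range m, lp.single 2 n (z n)‖ ^ 2
      = ‖z‖ ^ 2 - ∑ n ∈ Finset.range m, ‖z n‖ ^ 2 := by
  have := lp.norm_compl_sum_single (E := fun _ : ℕ => V) (p := 2) (by norm_num) z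
    (Finset.range m)
  simpa using this

lemma S_apply (m : ℕ) (z : E) (k : ℕ) :
    ((S m z : E) : Z) k = if k < m then (z : Z) k else 0 := by
  rw [S_coe]
  have h := map_sum (lp.evalCLM ℝ (fun _ : ℕ => V) 2 k)
    (fun n => lp.single 2 n ((z : Z) n)) (Finset.range m)
  change (lp.evalCLM ℝ (fun _ : ℕ => V) 2 k) _ = _
  rw [h]
  have h2 : ∀ n, (lp.evalCLM ℝ (fun _ : ℕ => V) 2 k) (lp.single 2 n ((z : Z) n))
      = if n = k then (z : Z) k else 0 := by
    intro n
    change (lp.single (E := fun _ : ℕ => V) 2 n ((z : Z) n)) k = _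
    split_ifs with hnk
    · subst hnk; rw [lp.single_apply_self]
    · rw [lp.single_apply_ne _ _ _ (Ne.symm hnk)]
  simp only [h2]
  rw [Finset.sum_ite_eq' (Finset.range m) k (fun _ => (z : Z) k)]
  simp only [Finset.mem_range]

lemma decE : Dec S where
  idem := by
    intro m u
    apply Subtype.ext
    apply lp.ext
    funext k
    rw [S_apply, S_apply]
    split_ifs <;> rfl
  pyth := by
    intro m u
    have h1 := Z_norm_sum m (u : Z)
    have h2 := Z_norm_compl m (u : Z)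
    rw [← S_coe] at h1 h2
    change ‖(u : Z)‖ ^ 2 = ‖((S m u : E) : Z)‖ ^ 2 + ‖(u : Z) - ((S m u : E) : Z)‖ ^ 2
    rw [h1, h2]; ring
  conv := by
    intro u
    rw [tendsto_subtype_rng]
    have h := (lp.hasSum_single (E := fun _ : ℕ => V) (p := 2) (by norm_num) (u : Z)).tendsto_sum_nat
    refine h.congr fun m => ?_
    rw [S_coe]

abbrev K (m : ℕ) : Type := PiLp 2 (fun _ : Fin m => H)

def mapA (m : ℕ) : E →L[ℝ] K m :=
  ((PiLp.continuousLinearEquiv 2 ℝ (fun _ : Fin m => H)).symm :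
      (Fin m → H) →L[ℝ] K m).comp
    (ContinuousLinearMap.pi (fun i : Fin m => pr i))

def mapB (m : ℕ) : K m →L[ℝ] E :=
  ∑ i : Fin m, (iota i).comp (PiLp.proj 2 (fun _ : Fin m => H) i)

lemma S_eq (m : ℕ) (z : E) : S m z = mapB m (mapA m z) := by
  unfold S mapB
  rw [sum_apply, sum_apply, Finset.sum_range]
  rfl

theorem X_reflexive :
    Function.Surjective (inclusionInDoubleDual ℝ (StrongDual ℝ E)) :=
  reflexive_dual decE K mapA mapB S_eq

end Vale.Agent.P069
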